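import Vale.Agent.Lib.P061.Separator

namespace Vale.Agent.Results.P061.FourConnectedNotThin

open Finset Vale.Agent.Lib.P061

/-- Vertices of the discrete torus of side `m + 3`. -/
abbrev TV (m : ℕ) := ZMod (m + 3) × ZMod (m + 3)

/-- The neighbour of `v` in direction `d` (second coordinate if `d`, first otherwise). -/
def shift {m : ℕ} (d : Bool) (v : TV m) : TV m :=
  if d then (v.1, v.2 + 1) else (v.1 + 1, v.2)

theorem one_ne_zero' (m : ℕ) : (1 : ZMod (m + 3)) ≠ 0 := by
  haveI : Fact (1 < m + 3) := ⟨by omega⟩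
  exact one_ne_zero

theorem shift_ne {m : ℕ} (d : Bool) (v : TV m) : shift d v ≠ v := by
  intro h
  cases d
  · have := congrArg Prod.fst h
    simp only [shift, Bool.false_eq_true, if_false] at this
    exact one_ne_zero' m (by simpa using this)
  · have := congrArg Prod.snd h
    simp only [shift, if_true] at this
    exact one_ne_zero' m (by simpa using this)

/-- The torus grid `C_(m+3) x C_(m+3)`: the edge `(v,d)` joins `v` to `shift d v`. -/
def torus (m : ℕ) : Multigraph (TV m) (TV m × Bool) where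
  ends := fun e => s(e.1, shift e.2 e.1)
  loopless := fun e h => shift_ne e.2 e.1 (Sym2.mk_isDiag_iff.mp h).symm

/-- The point with moving coordinate `t` on the line `c` of direction `d`. -/
def mk {m : ℕ} (d : Bool) (t c : ZMod (m + 3)) : TV m := if d then (c, t) else (t, c)

theorem shift_mk {m : ℕ} (d : Bool) (t c : ZMod (m + 3)) : shift d (mk d t c) = mk d (t + 1) c := by
  cases d <;> simp [shift, mk]

theorem mk_inj {m : ℕ} (d : Bool) {t c t' c' : ZMod (m + 3)} (h : mk d t c = mk d t' c') :
    t = t' ∧ c = c' := by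
  cases d
  · simp only [mk, Bool.false_eq_true, if_false, Prod.mk.injEq] at h
    exact h
  · simp only [mk, if_true, Prod.mk.injEq] at h
    exact ⟨h.2, h.1⟩

theorem exists_mk {m : ℕ} (d : Bool) (v : TV m) : ∃ t c, v = mk d t c := by
  cases d
  · exact ⟨v.1, v.2, by simp [mk]⟩
  · exact ⟨v.2, v.1, by simp [mk]⟩

/-- A nonconstant predicate on a cycle switches off somewhere. -/
theorem cyc {q : ℕ} [NeZero q] (P : ZMod q → Prop) (h1 : ∃ i, P i) (h0 : ∃ i, ¬ P i) :
    ∃ i, P i ∧ ¬ P (i + 1) := by
  by_contra hcon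
  push Not at hcon
  obtain ⟨i0, hi0⟩ := h1
  obtain ⟨j, hj⟩ := h0
  have hall : ∀ k : ℕ, P (i0 + (k : ZMod q)) := by
    intro k
    induction k with
    | zero => simpa using hi0
    | succ k ih =>
      have := hcon _ ih
      rw [add_assoc] at this
      simpa using this
  apply hj
  have := hall (j - i0).val
  rw [ZMod.natCast_zmod_val] at this
  simpa using this

open scoped Classical in
/-- Lines of direction `d` meeting both `S` and its complement. -/
noncomputable def mixed {m : ℕ} (d : Bool) (S : Finset (TV m)) : Finset (ZMod (m + 3)) :=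
  Finset.univ.filter (fun c => (∃ t, mk d t c ∈ S) ∧ (∃ t, mk d t c ∉ S))

theorem cross_count {m : ℕ} (d : Bool) (S : Finset (TV m)) :
    2 * (mixed d S).card ≤ (torus m).cutCard (Finset.univ.filter (fun e => e.2 = d)) S := by
  classical
  have hex : ∀ c : ZMod (m + 3), ∃ a b : ZMod (m + 3), c ∈ mixed d S →
      (mk d a c ∈ S ∧ mk d (a + 1) c ∉ S) ∧ (mk d b c ∉ S ∧ mk d (b + 1) c ∈ S) := by
    intro c
    by_cases hc : c ∈ mixed d S
    · simp only [mixed, Finset.mem_filter, Finset.mem_univ, true_and] at hc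
      obtain ⟨a, ha⟩ := cyc (fun t => mk d t c ∈ S) hc.1 hc.2
      obtain ⟨b, hb⟩ := cyc (fun t => mk d t c ∉ S) hc.2 (by simpa using hc.1)
      exact ⟨a, b, fun _ => ⟨ha, ⟨hb.1, by simpa using hb.2⟩⟩⟩
    · exact ⟨0, 0, fun h => absurd h hc⟩
  choose a b hab using hex
  have hcard : 2 * (mixed d S).card = ((mixed d S) ×ˢ (Finset.univ : Finset Bool)).card := by
    rw [Finset.card_product]
    simp [mul_comm]
  rw [hcard]
  unfold Multigraph.cutCard
  apply Finset.card_le_card_of_injOn
    (fun p : ZMod (m + 3) × Bool => ((mk d (if p.2 then a p.1 else b p.1) p.1, d) : TV m × Bool))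
  · intro p hp
    simp only [Finset.coe_product, Set.mem_prod, Finset.mem_coe, Finset.mem_univ, and_true] at hp
    obtain ⟨h1, h2⟩ := hab p.1 hp
    simp only [Finset.coe_filter, Finset.mem_filter, Finset.mem_univ, true_and, Set.mem_setOf_eq]
    cases hp2 : p.2
    · simp only [Bool.false_eq_true, if_false]
      refine ⟨mk d (b p.1 + 1) p.1, mk d (b p.1) p.1, ?_, h2.2, h2.1⟩
      simp only [torus]
      rw [shift_mk, Sym2.eq_swap]
    · simp only [if_true]
      refine ⟨mk d (a p.1) p.1, mk d (a p.1 + 1) p.1, ?_, h1.1, h1.2⟩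
      simp only [torus]
      rw [shift_mk]
  · intro p hp p' hp' h
    simp only [Finset.coe_product, Set.mem_prod, Finset.mem_coe, Finset.mem_univ, and_true] at hp hp'
    simp only [Prod.mk.injEq, and_true] at h
    obtain ⟨ht, hc⟩ := mk_inj d h
    obtain ⟨h1, h2⟩ := hab p.1 hp
    apply Prod.ext hc
    rw [← hc] at ht
    cases hp2 : p.2 <;> cases hp2' : p'.2
    · rfl
    · rw [hp2, hp2'] at ht
      simp only [Bool.false_eq_true, if_false, if_true] at ht
      exact absurd (ht ▸ h1.1) h2.1
    · rw [hp2, hp2'] at ht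
      simp only [Bool.false_eq_true, if_false, if_true] at ht
      exact absurd (ht ▸ h1.1) h2.1
    · rfl

theorem cut_ge {m : ℕ} (S : Finset (TV m)) :
    2 * (mixed false S).card + 2 * (mixed true S).card ≤ (torus m).cutCard Finset.univ S := by
  classical
  have h0 := cross_count false S
  have h1 := cross_count true S
  have hsplit : (torus m).cutCard Finset.univ S =
      (torus m).cutCard (Finset.univ.filter (fun e => e.2 = false)) S +
      (torus m).cutCard (Finset.univ.filter (fun e => e.2 = true)) S := by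
    unfold Multigraph.cutCard
    rw [← Finset.card_union_of_disjoint, ← Finset.filter_union]
    · congr 2
      ext e
      cases e.2 <;> simp
    · apply Finset.disjoint_filter_filter
      rw [Finset.disjoint_filter]
      intro e _ h
      simp [h]
  omega

theorem card_TV (m : ℕ) : Fintype.card (TV m) = (m + 3) * (m + 3) := by
  simp [TV, Fintype.card_prod, ZMod.card]

theorem card_TE (m : ℕ) : Fintype.card (TV m × Bool) = 2 * ((m + 3) * (m + 3)) := by
  rw [Fintype.card_prod, card_TV, Fintype.card_bool, mul_comm]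

/-- If no line of direction `d` lies inside `S`, then `S` is covered by the mixed lines. -/
theorem card_le_mixed {m : ℕ} (d : Bool) (S : Finset (TV m))
    (h : ∀ c, ∃ t, mk d t c ∉ S) : S.card ≤ (m + 3) * (mixed d S).card := by
  classical
  have hcard : (m + 3) * (mixed d S).card =
      ((Finset.univ : Finset (ZMod (m + 3))) ×ˢ (mixed d S)).card := by
    rw [Finset.card_product, Finset.card_univ, ZMod.card]
  rw [hcard]
  have hsub : S ⊆ ((Finset.univ : Finset (ZMod (m + 3))) ×ˢ (mixed d S)).image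
      (fun p => mk d p.1 p.2) := by
    intro v hv
    obtain ⟨t, c, rfl⟩ := exists_mk d v
    rw [Finset.mem_image]
    refine ⟨(t, c), ?_, rfl⟩
    simp only [Finset.mem_product, Finset.mem_univ, true_and, mixed, Finset.mem_filter]
    exact ⟨⟨t, hv⟩, h c⟩
  exact (Finset.card_le_card hsub).trans Finset.card_image_le

theorem mixed_compl {m : ℕ} (d : Bool) (S : Finset (TV m)) : mixed d Sᶜ = mixed d S := by
  classical
  ext c
  simp only [mixed, Finset.mem_filter, Finset.mem_univ, true_and, Finset.mem_compl, not_not]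
  exact and_comm

/-- Edge isoperimetry on the torus. -/
theorem isoperimetry {m : ℕ} (S : Finset (TV m)) (hS : 2 * S.card ≤ (m + 3) * (m + 3)) :
    2 * S.card ≤ (m + 3) * (torus m).cutCard Finset.univ S := by
  classical
  have hcut := cut_ge S
  by_cases h : ∀ c, ∃ t, mk false t c ∉ S
  · have h1 := card_le_mixed false S h
    calc 2 * S.card ≤ 2 * ((m + 3) * (mixed false S).card) := by omega
      _ = (m + 3) * (2 * (mixed false S).card) := by ring
      _ ≤ (m + 3) * (torus m).cutCard Finset.univ S := Nat.mul_le_mul_left _ (by omega)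
  · push Not at h
    obtain ⟨c0, hc0⟩ := h
    have h2 : ∀ c, ∃ t, mk true t c ∉ Sᶜ := by
      intro c
      refine ⟨c0, ?_⟩
      have := hc0 c
      simp only [mk, Bool.false_eq_true, if_false] at this
      simpa [mk] using this
    have h1 := card_le_mixed true Sᶜ h2
    rw [mixed_compl, Finset.card_compl, card_TV] at h1
    calc 2 * S.card ≤ 2 * ((m + 3) * (mixed true S).card) := by omega
      _ = (m + 3) * (2 * (mixed true S).card) := by ring
      _ ≤ (m + 3) * (torus m).cutCard Finset.univ S := Nat.mul_le_mul_left _ (by omega)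

theorem mk_not {m : ℕ} (d : Bool) (t c : ZMod (m + 3)) : mk (!d) t c = mk d c t := by
  cases d <;> simp [mk]

theorem mixed_univ {m : ℕ} (d : Bool) (S : Finset (TV m)) (h : mixed d S = ∅)
    (hne : S.Nonempty) (huniv : S ≠ Finset.univ) : mixed (!d) S = Finset.univ := by
  classical
  obtain ⟨v, hv⟩ := hne
  obtain ⟨w, hw⟩ : ∃ w, w ∉ S := by
    by_contra hh
    push Not at hh
    exact huniv (Finset.eq_univ_iff_forall.mpr hh)
  obtain ⟨t0, c0, rfl⟩ := exists_mk d v
  obtain ⟨t1, c1, rfl⟩ := exists_mk d w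
  have hpure : ∀ c, ¬ ((∃ t, mk d t c ∈ S) ∧ (∃ t, mk d t c ∉ S)) := by
    intro c hc
    have : c ∈ mixed d S := by
      simp only [mixed, Finset.mem_filter, Finset.mem_univ, true_and]
      exact hc
    rw [h] at this
    exact absurd this (Finset.notMem_empty c)
  have h0 : ∀ t, mk d t c0 ∈ S := by
    intro t
    by_contra hh
    exact hpure c0 ⟨⟨t0, hv⟩, ⟨t, hh⟩⟩
  have h1 : ∀ t, mk d t c1 ∉ S := by
    intro t hh
    exact hpure c1 ⟨⟨t, hh⟩, ⟨t1, hw⟩⟩
  rw [Finset.eq_univ_iff_forall]
  intro c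
  simp only [mixed, Finset.mem_filter, Finset.mem_univ, true_and]
  exact ⟨⟨c0, by rw [mk_not]; exact h0 c⟩, ⟨c1, by rw [mk_not]; exact h1 c⟩⟩

theorem torus_edgeConnected (m : ℕ) : (torus m).EdgeConnected 4 := by
  classical
  intro S hne huniv
  have hcut := cut_ge S
  have hq : (Finset.univ : Finset (ZMod (m + 3))).card = m + 3 := by
    rw [Finset.card_univ, ZMod.card]
  by_cases h0 : mixed false S = ∅
  · have := mixed_univ false S h0 hne huniv
    simp only [Bool.not_false] at this
    rw [this, hq] at hcut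
    omega
  · by_cases h1 : mixed true S = ∅
    · have := mixed_univ true S h1 hne huniv
      simp only [Bool.not_true] at this
      rw [this, hq] at hcut
      omega
    · have a0 := Finset.card_pos.mpr (Finset.nonempty_iff_ne_empty.mpr h0)
      have a1 := Finset.card_pos.mpr (Finset.nonempty_iff_ne_empty.mpr h1)
      omega

theorem torus_degree {m : ℕ} (F : Finset (TV m × Bool)) (b : TV m) :
    (F.filter (fun e => b ∈ (torus m).ends e)).card ≤ 3 + 1 := by
  classical
  have hsub : F.filter (fun e => b ∈ (torus m).ends e) ⊆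
      ({(b, false), (b, true), ((b.1 - 1, b.2), false), ((b.1, b.2 - 1), true)} :
        Finset (TV m × Bool)) := by
    intro e he
    rw [Finset.mem_filter] at he
    obtain ⟨⟨v1, v2⟩, d⟩ := e
    have h2 := he.2
    simp only [torus, Sym2.mem_iff] at h2
    simp only [Finset.mem_insert, Finset.mem_singleton]
    rcases h2 with h2 | h2
    · subst h2
      cases d
      · left; rfl
      · right; left; rfl
    · subst h2
      cases d
      · right; right; left
        simp [shift]
      · right; right; right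
        simp [shift]
  exact (Finset.card_le_card hsub).trans Finset.card_le_four

/-- The combinatorial core: for any set `T` of `q^2 - 1` edges of the torus there is a cut `S`
of size `D` with `q^2 - 1 ≤ 2 q D`, of which all but at most `3` edges are in `T`. -/
theorem bad_cut (m : ℕ) (T : Finset (TV m × Bool)) (hT : T.card + 1 = Fintype.card (TV m)) :
    ∃ S : Finset (TV m), S.Nonempty ∧ S ≠ Finset.univ ∧
      ((torus m).cutCard Finset.univ S ≤ (torus m).cutCard T S ∨
      ((torus m).cutCard Finset.univ S ≤ (torus m).cutCard T S + 3 ∧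
      (m + 3) * (m + 3) ≤ 2 * ((m + 3) * (torus m).cutCard Finset.univ S) + 1)) := by
  classical
  rw [card_TV] at hT
  have hq9 : 3 * 3 ≤ (m + 3) * (m + 3) :=
    Nat.mul_le_mul (show 3 ≤ m + 3 by omega) (show 3 ≤ m + 3 by omega)
  have hG'card : (Finset.univ \ T).card = (m + 3) * (m + 3) + 1 := by
    rw [Finset.card_sdiff_of_subset (Finset.subset_univ T), Finset.card_univ, card_TE]
    omega
  by_cases hc : (torus m).Conn (Finset.univ \ T)
  · obtain ⟨F, hFsub, hFconn, hFmin⟩ := (torus m).exists_min_conn _ hc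
    have hFcard := (torus m).card_le_of_conn F hFconn
    rw [card_TV] at hFcard
    obtain ⟨S, e, heF, hne, huniv, hcr, h2S, hVS⟩ :=
      (torus m).separator F hFconn hFmin (by rw [card_TV]; omega) 3 (torus_degree F)
    rw [card_TV] at h2S hVS
    refine ⟨S, hne, huniv, Or.inr ⟨?_, ?_⟩⟩
    · have h1 : (torus m).cutCard F S ≤ 1 := by
        unfold Multigraph.cutCard
        have : F.filter (fun g => (torus m).Crosses S g) ⊆ {e} := by
          intro g hg
          rw [Finset.mem_filter] at hg
          rw [Finset.mem_singleton]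
          exact (hcr g hg.1).mp hg.2
        exact (Finset.card_le_card this).trans (by simp)
      have h2 : (torus m).cutCard ((Finset.univ \ T) \ F) S ≤ 2 := by
        refine ((torus m).cutCard_le_card _ S).trans ?_
        rw [Finset.card_sdiff_of_subset hFsub]
        omega
      have h3 : (torus m).cutCard (Finset.univ \ T) S ≤ 3 := by
        have hU : Finset.univ \ T = F ∪ ((Finset.univ \ T) \ F) :=
          (Finset.union_sdiff_of_subset hFsub).symm
        have := (torus m).cutCard_union_le F ((Finset.univ \ T) \ F) S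
        rw [← hU] at this
        omega
      have h4 := (torus m).cutCard_add_sdiff T S
      omega
    · have hiso := isoperimetry S h2S
      omega
  · unfold Multigraph.Conn at hc
    push Not at hc
    obtain ⟨S, hne, huniv, hno⟩ := hc
    have h0 : (torus m).cutCard (Finset.univ \ T) S = 0 := by
      unfold Multigraph.cutCard
      rw [Finset.card_eq_zero, Finset.filter_eq_empty_iff]
      exact hno
    have h4 := (torus m).cutCard_add_sdiff T S
    exact ⟨S, hne, huniv, Or.inl (by omega)⟩

theorem thin_bound (m : ℕ) (T : Finset (TV m × Bool)) (α : ℝ)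
    (hT : T.card + 1 = Fintype.card (TV m)) (hthin : (torus m).IsThin T α) :
    1 - 6 * ((m : ℝ) + 3) / (((m : ℝ) + 3) ^ 2 - 1) ≤ α := by
  obtain ⟨S, hne, huniv, h⟩ := bad_cut m T hT
  have hD4 := torus_edgeConnected m S hne huniv
  have hth := hthin S hne huniv
  set D := (torus m).cutCard Finset.univ S with hD
  set t := (torus m).cutCard T S with ht
  have hD4' : (4 : ℝ) ≤ (D : ℝ) := by exact_mod_cast hD4
  have hq : (3 : ℝ) ≤ (m : ℝ) + 3 := by
    have : (0 : ℝ) ≤ (m : ℝ) := Nat.cast_nonneg m
    linarith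
  have hden : (0 : ℝ) < ((m : ℝ) + 3) ^ 2 - 1 := by nlinarith
  rcases h with h | ⟨h1, h2⟩
  · have h' : (D : ℝ) ≤ (t : ℝ) := by exact_mod_cast h
    have h1 : (1 : ℝ) ≤ α := by
      by_contra hh
      push Not at hh
      nlinarith
    have : 0 ≤ 6 * ((m : ℝ) + 3) / (((m : ℝ) + 3) ^ 2 - 1) := by positivity
    linarith
  · have h1' : (D : ℝ) ≤ (t : ℝ) + 3 := by exact_mod_cast h1
    have h2' : ((m : ℝ) + 3) * ((m : ℝ) + 3) ≤ 2 * (((m : ℝ) + 3) * (D : ℝ)) + 1 := by
      exact_mod_cast h2
    rw [sub_le_iff_le_add, ← sub_le_iff_le_add', le_div_iff₀ hden]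
    -- (1 - α) * (q^2 - 1) ≤ 6 q
    have h3 : (1 - α) * (D : ℝ) ≤ 3 := by nlinarith
    by_cases hα : 1 ≤ α
    · nlinarith
    · push Not at hα
      have h4 : ((m : ℝ) + 3) ^ 2 - 1 ≤ 2 * ((m : ℝ) + 3) * (D : ℝ) := by nlinarith
      calc (1 - α) * (((m : ℝ) + 3) ^ 2 - 1) ≤ (1 - α) * (2 * ((m : ℝ) + 3) * (D : ℝ)) :=
            mul_le_mul_of_nonneg_left h4 (by linarith)
        _ = 2 * ((m : ℝ) + 3) * ((1 - α) * (D : ℝ)) := by ring
        _ ≤ 2 * ((m : ℝ) + 3) * 3 := mul_le_mul_of_nonneg_left h3 (by linarith)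
        _ = 6 * ((m : ℝ) + 3) := by ring

/-- The torus grids `C_q x C_q` are 4-edge-connected, and every `α`-thin spanning tree of
`C_q x C_q` (`q = m + 3`) has `α ≥ 1 - 6 q / (q^2 - 1)`.  Hence for no `ε < 1` does every
4-edge-connected multigraph have an `ε`-thin spanning tree. -/
theorem result :
    (∀ m : ℕ, (torus m).EdgeConnected 4 ∧
      ∀ (T : Finset (TV m × Bool)) (α : ℝ), (torus m).IsSpanningTree T → (torus m).IsThin T α →
        1 - 6 * ((m : ℝ) + 3) / (((m : ℝ) + 3) ^ 2 - 1) ≤ α) ∧
    (∀ ε : ℝ, ε < 1 → ∃ (V E : Type) (_ : Fintype V) (_ : Fintype E) (G : Multigraph V E),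
      2 ≤ Fintype.card V ∧ G.EdgeConnected 4 ∧ ¬ ∃ T : Finset E, G.IsSpanningTree T ∧ G.IsThin T ε) := by
  have main : ∀ m : ℕ, (torus m).EdgeConnected 4 ∧
      ∀ (T : Finset (TV m × Bool)) (α : ℝ), (torus m).IsSpanningTree T → (torus m).IsThin T α →
        1 - 6 * ((m : ℝ) + 3) / (((m : ℝ) + 3) ^ 2 - 1) ≤ α :=
    fun m => ⟨torus_edgeConnected m, fun T α hT hthin => thin_bound m T α hT.2 hthin⟩
  refine ⟨main, ?_⟩
  intro ε hε
  obtain ⟨m, hm⟩ := exists_nat_gt (12 / (1 - ε))
  refine ⟨TV m, TV m × Bool, inferInstance, inferInstance, torus m, ?_, (main m).1, ?_⟩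
  · rw [card_TV]
    nlinarith
  · rintro ⟨T, hT, hthin⟩
    have hb := (main m).2 T ε hT hthin
    have h1ε : 0 < 1 - ε := by linarith
    have hq : (3 : ℝ) ≤ (m : ℝ) + 3 := by
      have : (0 : ℝ) ≤ (m : ℝ) := Nat.cast_nonneg m
      linarith
    have hden : (0 : ℝ) < ((m : ℝ) + 3) ^ 2 - 1 := by nlinarith
    rw [div_lt_iff₀ h1ε] at hm
    have h2 : 1 - ε ≤ 6 * ((m : ℝ) + 3) / (((m : ℝ) + 3) ^ 2 - 1) := by linarith
    rw [le_div_iff₀ hden] at h2
    -- (1-ε)(q^2-1) ≤ 6 q, but (1-ε) m > 12
    have h3 : 12 * ((m : ℝ) + 3) < (1 - ε) * (((m : ℝ) + 3) * ((m : ℝ) + 3)) := by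
      have : 12 < ((m : ℝ) + 3) * (1 - ε) := by nlinarith
      nlinarith
    have h4 : (1 - ε) * (((m : ℝ) + 3) * ((m : ℝ) + 3)) ≤ 2 * ((1 - ε) * (((m : ℝ) + 3) ^ 2 - 1)) := by
      have : ((m : ℝ) + 3) * ((m : ℝ) + 3) ≤ 2 * (((m : ℝ) + 3) ^ 2 - 1) := by nlinarith
      nlinarith
    linarith

end Vale.Agent.Results.P061.FourConnectedNotThin
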