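import Vale.Agent.Lib.P061.Complete
import Vale.Agent.Results.P061.FourConnectedNotThin

namespace Vale.Agent.Results.P061.Combined

open Finset Vale.Agent.Lib.P061 Vale.Agent.Results.P061.FourConnectedNotThin

/-- Lower bounds for the thin tree problem, in one statement.
(1) `K_(k+1)` is `k`-edge-connected and each of its `α`-thin spanning trees has
`α ≥ 4k/(k+1)^2`.
(2) Any constant `C` for which the strong thin tree statement holds is at least `4`.
(3) The torus grid `C_q x C_q`, `q = m + 3`, is 4-edge-connected and each of its `α`-thin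
spanning trees has `α ≥ 1 - 6q/(q^2-1)`.
(4) For no `ε < 1` does every 4-edge-connected multigraph have an `ε`-thin spanning tree. -/
theorem result :
    (∀ k : ℕ, 1 ≤ k → (complete (k + 1)).EdgeConnected k ∧
      ∀ (T : Finset {p : Sym2 (Fin (k + 1)) // ¬ p.IsDiag}) (α : ℝ),
        (complete (k + 1)).IsSpanningTree T → (complete (k + 1)).IsThin T α →
          4 * (k : ℝ) / ((k : ℝ) + 1) ^ 2 ≤ α) ∧
    (∀ C : ℝ, StrongThinTree C → 4 ≤ C) ∧
    (∀ m : ℕ, (torus m).EdgeConnected 4 ∧
      ∀ (T : Finset (TV m × Bool)) (α : ℝ), (torus m).IsSpanningTree T → (torus m).IsThin T α →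
        1 - 6 * ((m : ℝ) + 3) / (((m : ℝ) + 3) ^ 2 - 1) ≤ α) ∧
    (∀ ε : ℝ, ε < 1 → ∃ (V E : Type) (_ : Fintype V) (_ : Fintype E) (G : Multigraph V E),
      2 ≤ Fintype.card V ∧ G.EdgeConnected 4 ∧
        ¬ ∃ T : Finset E, G.IsSpanningTree T ∧ G.IsThin T ε) :=
  ⟨complete_result.1, complete_result.2,
    Vale.Agent.Results.P061.FourConnectedNotThin.result.1,
    Vale.Agent.Results.P061.FourConnectedNotThin.result.2⟩

end Vale.Agent.Results.P061.Combined
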